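import Vale.Agent.P192.R2.H360.R.Defs2

set_option linter.all false

/-! Machines over a group, row R9: bounded displacement. -/

namespace Vale.Agent.P192.R2.H570.R9

open Vale.Agent.P192 Vale.Agent.P192.H437 Vale.Agent.P192.H593 Vale.Agent.P192.R2.H577
open Vale.Agent.P192.R2.H360.R SimpleGraph
open scoped Pointwise

section

variable {H A Q : Type} [Group H] [DecidableEq H] {G : Type} [Group G] {S : Set G} {T : Finset H}
  [MulAction G (Cf H A Q)]

lemma disp (hMA : MA (H := H) (A := A) (Q := Q) G S T) (x : Cf H A Q) (w : List G)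
    (hw : ∀ s ∈ w, s ∈ S ∨ s⁻¹ ∈ S) : x.2.1⁻¹ * (w.prod • x).2.1 ∈ T ^ w.length := by
  induction w with
  | nil => simp
  | cons s w ih =>
    have ih := ih fun t ht => hw t (by simp [ht])
    have h1 := (hMA.mach s (hw s (by simp))).1 (w.prod • x)
    rw [List.prod_cons, mul_smul, List.length_cons, pow_succ]
    have h2 : x.2.1⁻¹ * (s • w.prod • x).2.1 =
        (x.2.1⁻¹ * (w.prod • x).2.1) * ((w.prod • x).2.1⁻¹ * (s • w.prod • x).2.1) := by group
    rw [h2]
    exact Finset.mul_mem_mul ih h1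

/-- heads along a word -/
noncomputable def heads (w : List G) (x : Cf H A Q) : Finset H :=
  (w.tails.map fun v => (v.prod • x).2.1).toFinset

lemma heads_card (w : List G) (x : Cf H A Q) : (heads w x).card ≤ w.length + 1 := by
  unfold heads
  refine (List.toFinset_card_le _).trans ?_
  rw [List.length_map, List.length_tails]

lemma mem_heads {w v : List G} {x : Cf H A Q} (h : v <:+ w) : (v.prod • x).2.1 ∈ heads w x := by
  unfold heads
  rw [List.mem_toFinset, List.mem_map]
  exact ⟨v, (List.mem_tails _ _).2 h, rfl⟩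

lemma agree (hMA : MA (H := H) (A := A) (Q := Q) G S T) {W : Finset H} {x x' : Cf H A Q}
    (h1 : x'.2.1 = x.2.1) (h2 : x'.2.2 = x.2.2) (h3 : ∀ p ∈ W, x'.1 p = x.1 p) (v : List G)
    (hv : ∀ s ∈ v, s ∈ S ∨ s⁻¹ ∈ S)
    (hW : ∀ u, u <:+ v → ∀ τ ∈ T, (u.prod • x).2.1 * τ ∈ W) :
    (v.prod • x').2.1 = (v.prod • x).2.1 ∧ (v.prod • x').2.2 = (v.prod • x).2.2 ∧
      ∀ p ∈ W, (v.prod • x').1 p = (v.prod • x).1 p := by
  induction v with
  | nil => simpa using ⟨h1, h2, h3⟩
  | cons s v ih =>
    obtain ⟨i1, i2, i3⟩ := ih (fun t ht => hv t (by simp [ht]))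
      (fun u hu => hW u (hu.trans (List.suffix_cons _ _)))
    have hm := hMA.mach s (hv s (by simp))
    rw [List.prod_cons, mul_smul, mul_smul]
    obtain ⟨m1, m2, m3⟩ := hm
    have hTW : ∀ τ ∈ T, (v.prod • x).2.1 * τ ∈ W := hW v (List.suffix_cons _ _)
    obtain ⟨k1, k2, k3⟩ := m3 (v.prod • x') (v.prod • x) i2 (fun τ hτ => by
      rw [i1]
      exact i3 _ (hTW τ hτ))
    refine ⟨?_, k2, ?_⟩
    · rw [i1] at k1
      exact mul_left_cancel k1
    · intro p hp
      by_cases hpT : (v.prod • x).2.1⁻¹ * p ∈ T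
      · have := k3 _ hpT
        rw [i1] at this
        simpa [mul_inv_cancel_left] using this
      · have e1 : (s • v.prod • x).1 p = (v.prod • x).1 p := by
          by_contra hne
          exact hpT (m2 _ p hne)
        have e2 : (s • v.prod • x').1 p = (v.prod • x').1 p := by
          by_contra hne
          exact hpT (by rw [← i1]; exact m2 _ p hne)
        rw [e1, e2]
        exact i3 p hp

end

theorem r9 : R9 := by
  intro hR5 hE8 H _ _ hH A Q _ _ _ G _ _ hG S T _ hMA
  classical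
  obtain ⟨R, m, hRm⟩ := hE8 H hH A Q (Classical.arbitrary A) G hG S T hMA
  obtain ⟨n0, hn0⟩ := hR5 G hG S hMA.fin hMA.gen H A Q T (3 * T.card * (T ^ R).card)
  refine ⟨m + n0 + 1, ?_⟩
  intro x₁ y₁ hy₁
  obtain ⟨d, hd⟩ : ∃ d : H, d = x₁.2.1⁻¹ * y₁.2.1 := ⟨_, rfl⟩
  rw [← hd]
  let P : ℕ → Prop := fun N => ∃ (x : Cf H A Q) (w : List G), (∀ s ∈ w, s ∈ S ∨ s⁻¹ ∈ S) ∧
    w.length = N ∧ x.2.1⁻¹ * (w.prod • x).2.1 = d
  have hP : ∃ N, P N := by
    obtain ⟨g, rfl⟩ := hy₁
    obtain ⟨w, hw, rfl⟩ := exists_list S hMA.gen g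
    exact ⟨w.length, x₁, w, hw, rfl, hd.symm⟩
  obtain ⟨N, hN, hmin⟩ : ∃ N, P N ∧ ∀ N' < N, ¬ P N' :=
    ⟨Nat.find hP, Nat.find_spec hP, fun N' h => Nat.find_min hP h⟩
  obtain ⟨x, w, hw, hlen, hdw⟩ := hN
  have hdN : d ∈ T ^ N := by
    rw [← hdw, ← hlen]
    exact disp hMA x w hw
  suffices h : N ≤ m + n0 + 1 from Finset.pow_subset_pow_right hMA.one h hdN
  by_contra hbig
  push Not at hbig
  -- erase the tape off the windows
  let W : Finset H := heads w x * T
  let x' : Cf H A Q := (fun p => if p ∈ W then x.1 p else Classical.arbitrary A, x.2.1, x.2.2)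
  have hx'1 : ∀ p ∈ W, x'.1 p = x.1 p := fun p hp => if_pos hp
  have hx'2 : ∀ p ∉ W, x'.1 p = Classical.arbitrary A := fun p hp => if_neg hp
  obtain ⟨a1, a2, a3⟩ := agree hMA (x := x) (x' := x') (W := W) rfl rfl hx'1 w hw
    (fun u hu τ hτ => Finset.mul_mem_mul (mem_heads hu) hτ)
  let X := MulAction.orbit G x'
  let hd' : X → H := fun z => z.1.2.1
  let tp' : X → H → A := fun z => z.1.1
  let st' : X → Q := fun z => z.1.2.2
  have hLoc : Loc S T X hd' tp' st' :=
    { one := hMA.one
      inv := hMA.inv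
      move := fun z s hs => (hMA.mach s hs).1 z.1
      write := fun z s p hs h => (hMA.mach s hs).2.1 z.1 p h
      inj := fun z z' e1 e2 e3 => Subtype.ext (Prod.ext e3 (Prod.ext e1 e2)) }
  let x0 : X := ⟨x', MulAction.mem_orbit_self x'⟩
  have hnot : ¬ hop S (N - 1) x0 (w.prod • x0) := by
    rintro ⟨w', hw', hl, he⟩
    have he' : w'.prod • x' = w.prod • x' := congrArg Subtype.val he
    refine hmin w'.length (by omega) ⟨x', w', hw', rfl, ?_⟩
    rw [he', a1]
    exact hdw
  rcases hRm x' with hc | hc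
  · -- small orbit
    have hfin : (MulAction.orbit G x').Finite := Set.finite_of_encard_le_coe hc
    have : Fintype X := hfin.fintype
    have hcard : Fintype.card X ≤ m := by
      have h1 : (MulAction.orbit G x').encard = (Fintype.card X : ℕ∞) := by
        rw [Set.encard_eq_coe_toFinset_card, Set.toFinset_card]
      rw [h1] at hc
      exact_mod_cast hc
    have : Nonempty X := ⟨x0⟩
    obtain ⟨p⟩ := (sch_connected (X := X) hMA.gen).preconnected x0 (w.prod • x0)
    have hp := hop_of_walk p.toPath.1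
    have hl : p.toPath.1.length < Fintype.card X := p.toPath.2.length_lt
    exact hnot (hop_le (by omega) hp)
  · -- large orbit
    have hZ : ∀ z : X, hd' z ∈ W * T ^ R := by
      intro z
      obtain ⟨k, hk, hk2⟩ := hc z.1 z.2
      have hkW : k ∈ W := by
        by_contra h
        exact hk (hx'2 k h)
      have : hd' z = k * (k⁻¹ * z.1.2.1) := by rw [mul_inv_cancel_left]
      rw [this]
      exact Finset.mul_mem_mul hkW hk2
    have hZc : (W * T ^ R).card ≤ 3 * T.card * (T ^ R).card * (N - 1) := by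
      calc (W * T ^ R).card ≤ W.card * (T ^ R).card := Finset.card_mul_le
        _ ≤ ((heads w x).card * T.card) * (T ^ R).card :=
            Nat.mul_le_mul_right _ Finset.card_mul_le
        _ ≤ ((N + 1) * T.card) * (T ^ R).card := by
            refine Nat.mul_le_mul_right _ (Nat.mul_le_mul_right _ ?_)
            rw [← hlen]
            exact heads_card w x
        _ ≤ ((3 * (N - 1)) * T.card) * (T ^ R).card := by
            refine Nat.mul_le_mul_right _ (Nat.mul_le_mul_right _ ?_)
            omega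
        _ = 3 * T.card * (T ^ R).card * (N - 1) := by ring
    have := hn0 X hd' tp' st' hLoc x0 (w.prod • x0) (N - 1) (W * T ^ R) hZ hZc hnot
    omega

end Vale.Agent.P192.R2.H570.R9
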